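import Vale.Agent.P064G.Order

/-!
# P064: `p_c ≤ 12800 p_E log² n` for ALL graphs `H`, stated with Mathlib notions only

Same thresholds as in the problem file, written out: a graph on `[n]` has probability
`p^{e(G)} (1-p)^{C(n,2)-e(G)}` in `G(n,p)`, and the number of copies of `F` in `G` is the number of
graphs `G' ≤ G` on `[n]` isomorphic to `F`.  For every `n ≥ 2` and every `H` on `[n]` with an edge
the three minima `p_c`, `p_E`, `tilde p_E` exist, `0 < p_E ≤ tilde p_E`, `p_E ≤ p_c`, and with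
`l = ⌊log₂ e(H)⌋ + 1`: `tilde p_E ≤ 8 l p_E`, `p_c ≤ 512 l² p_E`, `tilde p_E ≤ 40 p_E log n`,
`p_c ≤ 12800 p_E log² n`; if `H` is a forest, `tilde p_E ≤ 6·10⁷ p_E` and `p_c ≤ 2·10¹⁰ p_E log n`.
-/

namespace Vale.Agent.Results.P064.AllGraphsUnfolded

open Vale.Agent.P064 Vale.Agent.P064F Vale.Agent.P064G

open Classical in
theorem result (n : ℕ) (hn : 2 ≤ n) (H : SimpleGraph (Fin n)) (hH : H ≠ ⊥) :
    ∃ pc pe pt : ℝ,
      IsLeast {p : ℝ | 0 ≤ p ∧ p ≤ 1 ∧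
        1 / 2 ≤ ∑ G : SimpleGraph (Fin n),
          if 0 < Set.ncard {G' : SimpleGraph (Fin n) | G' ≤ G ∧ Nonempty (G' ≃g H)}
          then p ^ G.edgeSet.ncard * (1 - p) ^ (n.choose 2 - G.edgeSet.ncard) else 0} pc ∧
      IsLeast {p : ℝ | 0 ≤ p ∧ p ≤ 1 ∧ ∀ F : SimpleGraph (Fin n), F ≤ H →
        1 / 2 ≤ ∑ G : SimpleGraph (Fin n),
          p ^ G.edgeSet.ncard * (1 - p) ^ (n.choose 2 - G.edgeSet.ncard) *
            (Set.ncard {G' : SimpleGraph (Fin n) | G' ≤ G ∧ Nonempty (G' ≃g F)} : ℝ)} pe ∧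
      IsLeast {p : ℝ | 0 ≤ p ∧ p ≤ 1 ∧ ∀ F : SimpleGraph (Fin n), F ≤ H →
        (Set.ncard {G' : SimpleGraph (Fin n) | G' ≤ H ∧ Nonempty (G' ≃g F)} : ℝ) / 2 ≤
          ∑ G : SimpleGraph (Fin n),
            p ^ G.edgeSet.ncard * (1 - p) ^ (n.choose 2 - G.edgeSet.ncard) *
              (Set.ncard {G' : SimpleGraph (Fin n) | G' ≤ G ∧ Nonempty (G' ≃g F)} : ℝ)} pt ∧
      0 < pe ∧ pe ≤ pt ∧ pe ≤ pc ∧
      pt ≤ 8 * ((Nat.log 2 H.edgeSet.ncard : ℝ) + 1) * pe ∧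
      pc ≤ 512 * ((Nat.log 2 H.edgeSet.ncard : ℝ) + 1) ^ 2 * pe ∧
      pt ≤ 40 * pe * Real.log n ∧ pc ≤ 12800 * pe * (Real.log n) ^ 2 ∧
      (H.IsAcyclic → pt ≤ 60000000 * pe ∧ pc ≤ 20000000000 * pe * Real.log n) :=
  ⟨pC n H, pE n H, pEt n H, pC_isLeast n H, pE_isLeast n H, pEt_isLeast n H,
    pE_pos n H hH, pE_le_pEt n H, pE_le_pC n H,
    (sharp_threshold n H hH).1, (sharp_threshold n H hH).2,
    (gen_threshold n hn H hH).1, (gen_threshold n hn H hH).2,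
    fun hA => forest_threshold n hn H hA hH⟩

end Vale.Agent.Results.P064.AllGraphsUnfolded
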