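import Vale.Agent.P064F.Main

/-!
# P064: the Dubroff-Kahn-Park counting inequality for all forests, with a universal constant

`copies H F` is the number of graphs `G ≤ H` (on the same vertex set) isomorphic to `F`; thus
`copies ⊤ F * q ^ e(F)` is the expected number of copies of `F` in `G(n,q)`.
If `H` is a forest on `[n]` all of whose subgraphs have expected count at least `1` at density `q`,
then `N(H,F) ≤ E N(G(n, min{1, L q}), F)` for every graph `F`, with `L = 3 * 10^7`.
-/

namespace Vale.Agent.Results.P064.ForestSpread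

open Vale.Agent.P064

theorem result (n : ℕ) (H : SimpleGraph (Fin n)) (hH : H.IsAcyclic) (q : ℝ) (hq0 : 0 ≤ q)
    (hyp : ∀ W : SimpleGraph (Fin n), W ≤ H → 1 ≤ (copies ⊤ W : ℝ) * q ^ W.edgeSet.ncard)
    (F : SimpleGraph (Fin n)) :
    (copies H F : ℝ) ≤ (copies ⊤ F : ℝ) * (min 1 (30000000 * q)) ^ F.edgeSet.ncard :=
  Vale.Agent.P064F.forest_spread H hH q hq0 hyp F

end Vale.Agent.Results.P064.ForestSpread
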