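import Vale.Agent.P064F.GnpMain

/-!
# P064: the second Kahn-Kalai conjecture holds for all forests

For every `n ≥ 2` and every forest `H` on `[n]` with at least one edge, the three minima
`p_c(n,H)`, `p_E(n,H)`, `tilde p_E(n,H)` of the problem file exist and satisfy
`tilde p_E ≤ 6 * 10^7 * p_E` and `p_c ≤ 2 * 10^10 * p_E * log n`.
The proof is self-contained: it includes the counting inequality for forests and a proof of the
Park-Pham type theorem for spread families in the product measure.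
-/

namespace Vale.Agent.Results.P064.ForestThreshold

open Vale.Agent.P064 Vale.Agent.P064F

theorem result (n : ℕ) (hn : 2 ≤ n) (H : SimpleGraph (Fin n)) (hA : H.IsAcyclic) (hH : H ≠ ⊥) :
    ∃ pc pe pt : ℝ,
      IsLeast {p : ℝ | 0 ≤ p ∧ p ≤ 1 ∧ 1 / 2 ≤ probHas n H p} pc ∧
      IsLeast {p : ℝ | 0 ≤ p ∧ p ≤ 1 ∧
        ∀ F : SimpleGraph (Fin n), F ≤ H → 1 / 2 ≤ expN n F p} pe ∧
      IsLeast {p : ℝ | 0 ≤ p ∧ p ≤ 1 ∧
        ∀ F : SimpleGraph (Fin n), F ≤ H → (copies H F : ℝ) / 2 ≤ expN n F p} pt ∧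
      pt ≤ 60000000 * pe ∧ pc ≤ 20000000000 * pe * Real.log n :=
  ⟨pC n H, pE n H, pEt n H, pC_isLeast n H, pE_isLeast n H, pEt_isLeast n H,
    (forest_threshold n hn H hA hH).1, (forest_threshold n hn H hA hH).2⟩

end Vale.Agent.Results.P064.ForestThreshold
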