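import Vale.Agent.P064G.Sharp

/-!
# P064: `tilde p_E = O(p_E log n)` and `p_c = O(p_E log^2 n)` for ALL graphs `H`

For every `n ≥ 2` and every graph `H` on `[n]` with at least one edge, the three minima
`p_c(n,H)`, `p_E(n,H)`, `tilde p_E(n,H)` of the problem file exist and satisfy, with
`l = ⌊log₂ e(H)⌋ + 1`,
`tilde p_E ≤ 8 l p_E`, `p_c ≤ 512 l^2 p_E`, and hence
`tilde p_E ≤ 40 * p_E * log n` and `p_c ≤ 12800 * p_E * (log n)^2`.
So the function `f(n)` of the problem file is `O(log^2 n)`.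
The proof is self-contained: a peeling lemma for spread under a group action
(`Vale.Agent.P064G.peel`, `log_spread`) and a proof of the Park-Pham type theorem for spread
families in the product measure.
-/

namespace Vale.Agent.Results.P064.GeneralLogSquared

open Vale.Agent.P064 Vale.Agent.P064F Vale.Agent.P064G

theorem result (n : ℕ) (hn : 2 ≤ n) (H : SimpleGraph (Fin n)) (hH : H ≠ ⊥) :
    ∃ pc pe pt : ℝ,
      IsLeast {p : ℝ | 0 ≤ p ∧ p ≤ 1 ∧ 1 / 2 ≤ probHas n H p} pc ∧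
      IsLeast {p : ℝ | 0 ≤ p ∧ p ≤ 1 ∧
        ∀ F : SimpleGraph (Fin n), F ≤ H → 1 / 2 ≤ expN n F p} pe ∧
      IsLeast {p : ℝ | 0 ≤ p ∧ p ≤ 1 ∧
        ∀ F : SimpleGraph (Fin n), F ≤ H → (copies H F : ℝ) / 2 ≤ expN n F p} pt ∧
      pt ≤ 8 * ((Nat.log 2 H.edgeSet.ncard : ℝ) + 1) * pe ∧
      pc ≤ 512 * ((Nat.log 2 H.edgeSet.ncard : ℝ) + 1) ^ 2 * pe ∧
      pt ≤ 40 * pe * Real.log n ∧ pc ≤ 12800 * pe * (Real.log n) ^ 2 :=
  ⟨pC n H, pE n H, pEt n H, pC_isLeast n H, pE_isLeast n H, pEt_isLeast n H,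
    (sharp_threshold n H hH).1, (sharp_threshold n H hH).2,
    (gen_threshold n hn H hH).1, (gen_threshold n hn H hH).2⟩

end Vale.Agent.Results.P064.GeneralLogSquared
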